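import Mathlib.Algebra.Order.BigOperators.Ring.Finset
import Mathlib.Algebra.Order.Field.Basic
import Mathlib.Data.Rat.Cast.Order
import Mathlib.Tactic.Linarith
import Mathlib.Tactic.Ring
import Mathlib.Tactic.FieldSimp
import Mathlib.Tactic.Positivity

/-! # P290, package ALG-NEF: Zariski's lemma as linear algebra (helper270)

`T` finite set of curves, `M` intersection numbers, `m > 0` multiplicities with
`∑_{j ∈ T} m j * M i j = 0` for all `i ∈ T`.
-/

namespace P290.H270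

open Finset

variable {κ : Type*}

/-- the quadratic identity behind Zariski's lemma -/
theorem zar_identity (T : Finset κ) (M : κ → κ → ℚ) (m b : κ → ℚ)
    (hs : ∀ i ∈ T, ∀ j ∈ T, M i j = M j i)
    (hrow : ∀ i ∈ T, ∑ j ∈ T, m j * M i j = 0) :
    ∑ i ∈ T, ∑ j ∈ T, m i * m j * M i j * (b i - b j) ^ 2
      = -2 * ∑ i ∈ T, ∑ j ∈ T, (m i * b i) * (m j * b j) * M i j := by
  have h1 : ∑ i ∈ T, ∑ j ∈ T, m i * m j * M i j * (b i) ^ 2 = 0 := by
    apply Finset.sum_eq_zero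
    intro i hi
    have : ∑ j ∈ T, m i * m j * M i j * (b i) ^ 2 = (m i * (b i) ^ 2) * ∑ j ∈ T, m j * M i j := by
      rw [Finset.mul_sum]
      exact Finset.sum_congr rfl fun j _ => by ring
    rw [this, hrow i hi, mul_zero]
  have h2 : ∑ i ∈ T, ∑ j ∈ T, m i * m j * M i j * (b j) ^ 2 = 0 := by
    rw [Finset.sum_comm]
    apply Finset.sum_eq_zero
    intro j hj
    have : ∑ i ∈ T, m i * m j * M i j * (b j) ^ 2 = (m j * (b j) ^ 2) * ∑ i ∈ T, m i * M j i := by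
      rw [Finset.mul_sum]
      exact Finset.sum_congr rfl fun i hi => by rw [hs i hi j hj]; ring
    rw [this, hrow j hj, mul_zero]
  have h3 : ∑ i ∈ T, ∑ j ∈ T, m i * m j * M i j * (b i - b j) ^ 2
      = (∑ i ∈ T, ∑ j ∈ T, m i * m j * M i j * (b i) ^ 2)
        + (∑ i ∈ T, ∑ j ∈ T, m i * m j * M i j * (b j) ^ 2)
        + -2 * ∑ i ∈ T, ∑ j ∈ T, (m i * b i) * (m j * b j) * M i j := by
    rw [Finset.mul_sum, ← Finset.sum_add_distrib, ← Finset.sum_add_distrib]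
    refine Finset.sum_congr rfl fun i _ => ?_
    rw [Finset.mul_sum, ← Finset.sum_add_distrib, ← Finset.sum_add_distrib]
    exact Finset.sum_congr rfl fun j _ => by ring
  rw [h3, h1, h2]; ring

/-- the same identity for an integral vector `a = m b` -/
theorem zar_identity' (T : Finset κ) (M : κ → κ → ℤ) (m : κ → ℤ) (a : κ → ℤ)
    (hs : ∀ i ∈ T, ∀ j ∈ T, M i j = M j i)
    (hm : ∀ i ∈ T, 0 < m i)
    (hrow : ∀ i ∈ T, ∑ j ∈ T, m j * M i j = 0) :
    ∑ i ∈ T, ∑ j ∈ T, (m i : ℚ) * m j * M i j * ((a i : ℚ) / m i - (a j : ℚ) / m j) ^ 2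
      = -2 * ((∑ i ∈ T, ∑ j ∈ T, a i * a j * M i j : ℤ) : ℚ) := by
  rw [zar_identity T (fun i j => (M i j : ℚ)) (fun i => (m i : ℚ)) (fun i => (a i : ℚ) / m i)
    (fun i hi j hj => by rw [hs i hi j hj])
    (fun i hi => by
      have := hrow i hi
      have h : ((∑ j ∈ T, m j * M i j : ℤ) : ℚ) = 0 := by rw [this]; simp
      push_cast at h
      exact h)]
  congr 1
  push_cast
  refine Finset.sum_congr rfl fun i hi => Finset.sum_congr rfl fun j hj => ?_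
  have h1 : (m i : ℚ) ≠ 0 := by exact_mod_cast (hm i hi).ne'
  have h2 : (m j : ℚ) ≠ 0 := by exact_mod_cast (hm j hj).ne'
  field_simp

/-- Zariski's lemma, negativity -/
theorem zar_nonpos (T : Finset κ) (M : κ → κ → ℤ) (m : κ → ℤ) (a : κ → ℤ)
    (hs : ∀ i ∈ T, ∀ j ∈ T, M i j = M j i)
    (hm : ∀ i ∈ T, 0 < m i)
    (hpos : ∀ i ∈ T, ∀ j ∈ T, i ≠ j → 0 ≤ M i j)
    (hrow : ∀ i ∈ T, ∑ j ∈ T, m j * M i j = 0) :
    ∑ i ∈ T, ∑ j ∈ T, a i * a j * M i j ≤ 0 := by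
  have h := zar_identity' T M m a hs hm hrow
  have h0 : 0 ≤ ∑ i ∈ T, ∑ j ∈ T, (m i : ℚ) * m j * M i j * ((a i : ℚ) / m i - (a j : ℚ) / m j) ^ 2 := by
    refine Finset.sum_nonneg fun i hi => Finset.sum_nonneg fun j hj => ?_
    rcases eq_or_ne i j with rfl | hij
    · simp
    · have h1 : (0 : ℚ) < m i := by exact_mod_cast hm i hi
      have h2 : (0 : ℚ) < m j := by exact_mod_cast hm j hj
      have h3 : (0 : ℚ) ≤ M i j := by exact_mod_cast hpos i hi j hj hij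
      positivity
  rw [h] at h0
  have : ((∑ i ∈ T, ∑ j ∈ T, a i * a j * M i j : ℤ) : ℚ) ≤ 0 := by linarith
  exact_mod_cast this

/-- Zariski's lemma, equality case along an edge -/
theorem zar_edge (T : Finset κ) (M : κ → κ → ℤ) (m : κ → ℤ) (a : κ → ℤ)
    (hs : ∀ i ∈ T, ∀ j ∈ T, M i j = M j i)
    (hm : ∀ i ∈ T, 0 < m i)
    (hpos : ∀ i ∈ T, ∀ j ∈ T, i ≠ j → 0 ≤ M i j)
    (hrow : ∀ i ∈ T, ∑ j ∈ T, m j * M i j = 0)
    (hz : 0 ≤ ∑ i ∈ T, ∑ j ∈ T, a i * a j * M i j)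
    {i j : κ} (hi : i ∈ T) (hj : j ∈ T) (hij : i ≠ j) (hM : 0 < M i j) :
    a i * m j = a j * m i := by
  have h := zar_identity' T M m a hs hm hrow
  have hnn : ∀ i ∈ T, ∀ j ∈ T, 0 ≤ (m i : ℚ) * m j * M i j * ((a i : ℚ) / m i - (a j : ℚ) / m j) ^ 2 := by
    intro i hi j hj
    rcases eq_or_ne i j with rfl | hij
    · simp
    · have h1 : (0 : ℚ) < m i := by exact_mod_cast hm i hi
      have h2 : (0 : ℚ) < m j := by exact_mod_cast hm j hj
      have h3 : (0 : ℚ) ≤ M i j := by exact_mod_cast hpos i hi j hj hij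
      positivity
  have h0 : ∑ i ∈ T, ∑ j ∈ T, (m i : ℚ) * m j * M i j * ((a i : ℚ) / m i - (a j : ℚ) / m j) ^ 2 = 0 := by
    apply le_antisymm
    · rw [h]
      have : (0 : ℚ) ≤ ((∑ i ∈ T, ∑ j ∈ T, a i * a j * M i j : ℤ) : ℚ) := by exact_mod_cast hz
      linarith
    · exact Finset.sum_nonneg fun i hi => Finset.sum_nonneg fun j hj => hnn i hi j hj
  have h1 := (Finset.sum_eq_zero_iff_of_nonneg
    (fun i hi => Finset.sum_nonneg fun j hj => hnn i hi j hj)).1 h0 i hi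
  have h2 := (Finset.sum_eq_zero_iff_of_nonneg (fun j hj => hnn i hi j hj)).1 h1 j hj
  have e1 : (0 : ℚ) < m i := by exact_mod_cast hm i hi
  have e2 : (0 : ℚ) < m j := by exact_mod_cast hm j hj
  have e3 : (0 : ℚ) < M i j := by exact_mod_cast hM
  have e4 : ((a i : ℚ) / m i - (a j : ℚ) / m j) ^ 2 = 0 := by
    have : (m i : ℚ) * m j * M i j ≠ 0 := by positivity
    exact (mul_eq_zero.1 h2).resolve_left this
  have e5 : (a i : ℚ) / m i = (a j : ℚ) / m j := by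
    have := pow_eq_zero_iff (n := 2) (by norm_num) |>.1 e4
    linarith
  rw [div_eq_div_iff e1.ne' e2.ne'] at e5
  exact_mod_cast e5

end P290.H270
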