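import Mathlib.LinearAlgebra.Finsupp.LinearCombination
import Mathlib.Algebra.Group.Hom.Defs
import Mathlib.Algebra.Module.NatInt
import Mathlib.Data.Finsupp.Order
import Mathlib.Tactic.LinearCombination
import Vale.Agent.P290.H270.Zar

/-! # P290, package ALG-NEF: curves on a surface, abstractly (helper270)

`Curves H` : a group `H` with a symmetric integral pairing, irreducible curves with classes,
distinct curves pair nonnegatively.  `Fib K` : a fibration seen through its fibres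
(effective divisors `F s` of class `e`, connected, pairwise disjoint, containing exactly the
curves of degree `0` over the base).
-/

namespace P290.H270

open Finset

universe u v w

/-- irreducible curves with their classes -/
structure Curves (H : Type u) [AddCommGroup H] where
  /-- the pairing -/
  B : H →+ H →+ ℤ
  symm : ∀ x y, B x y = B y x
  /-- the irreducible curves -/
  κ : Type v
  /-- the class of a curve -/
  cl : κ → H
  nonneg : ∀ C C', C ≠ C' → 0 ≤ B (cl C) (cl C')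

namespace Curves

variable {H : Type u} [AddCommGroup H] (K : Curves.{u, v} H)

/-- the class of an effective divisor -/
noncomputable def cls (D : K.κ →₀ ℕ) : H := Finsupp.linearCombination ℕ K.cl D

@[simp] theorem cls_zero : K.cls 0 = 0 := by simp [cls]

theorem cls_add (D E : K.κ →₀ ℕ) : K.cls (D + E) = K.cls D + K.cls E := by simp [cls]

theorem cls_nsmul (n : ℕ) (D : K.κ →₀ ℕ) : K.cls (n • D) = n • K.cls D := by
  simp [cls]

theorem cls_eq_sum (D : K.κ →₀ ℕ) {T : Finset K.κ} (hT : D.support ⊆ T) :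
    K.cls D = ∑ C ∈ T, D C • K.cl C := by
  rw [cls, Finsupp.linearCombination_apply, Finsupp.sum]
  apply Finset.sum_subset hT
  intro C _ hC
  rw [Finsupp.notMem_support_iff.1 hC, zero_smul]

theorem B_cls (D : K.κ →₀ ℕ) {T : Finset K.κ} (hT : D.support ⊆ T) (x : H) :
    K.B (K.cls D) x = ∑ C ∈ T, (D C : ℤ) * K.B (K.cl C) x := by
  rw [K.cls_eq_sum D hT, map_sum, AddMonoidHom.finsetSum_apply]
  refine Finset.sum_congr rfl fun C _ => ?_
  rw [map_nsmul, AddMonoidHom.nsmul_apply, nsmul_eq_mul]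

theorem B_cls_right (D : K.κ →₀ ℕ) {T : Finset K.κ} (hT : D.support ⊆ T) (x : H) :
    K.B x (K.cls D) = ∑ C ∈ T, (D C : ℤ) * K.B x (K.cl C) := by
  rw [K.symm, K.B_cls D hT]
  exact Finset.sum_congr rfl fun C _ => by rw [K.symm]

theorem B_cls_cls (D E : K.κ →₀ ℕ) {T : Finset K.κ} (hD : D.support ⊆ T) (hE : E.support ⊆ T) :
    K.B (K.cls D) (K.cls E) = ∑ C ∈ T, ∑ C' ∈ T, (D C : ℤ) * (E C' : ℤ) * K.B (K.cl C) (K.cl C') := by
  rw [K.B_cls D hD]
  refine Finset.sum_congr rfl fun C _ => ?_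
  rw [K.B_cls_right E hE, Finset.mul_sum]
  exact Finset.sum_congr rfl fun C' _ => by ring

/-- a divisor none of whose components is `C` meets `C` nonnegatively -/
theorem nonneg_of_notMem (D : K.κ →₀ ℕ) (C : K.κ) (hC : D C = 0) :
    0 ≤ K.B (K.cls D) (K.cl C) := by
  rw [K.B_cls D (Finset.Subset.refl _)]
  refine Finset.sum_nonneg fun C' hC' => ?_
  have : C' ≠ C := by
    rintro rfl
    exact (Finsupp.mem_support_iff.1 hC') hC
  exact mul_nonneg (by positivity) (K.nonneg _ _ this)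

/-- if `x` is nonnegative on all components of `D` then `x.D ≥ 0` -/
theorem nonneg_of_forall (x : H) (D : K.κ →₀ ℕ) (h : ∀ C ∈ D.support, 0 ≤ K.B x (K.cl C)) :
    0 ≤ K.B x (K.cls D) := by
  rw [K.B_cls_right D (Finset.Subset.refl _)]
  exact Finset.sum_nonneg fun C hC => mul_nonneg (by positivity) (h C hC)

/-- if moreover `x.D = 0` then `x` vanishes on all components of `D` -/
theorem eq_zero_of_forall (x : H) (D : K.κ →₀ ℕ) (h : ∀ C ∈ D.support, 0 ≤ K.B x (K.cl C))
    (h0 : K.B x (K.cls D) = 0) : ∀ C ∈ D.support, K.B x (K.cl C) = 0 := by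
  rw [K.B_cls_right D (Finset.Subset.refl _)] at h0
  intro C hC
  have := (Finset.sum_eq_zero_iff_of_nonneg
    (fun C hC => mul_nonneg (by positivity) (h C hC))).1 h0 C hC
  have h1 : (D C : ℤ) ≠ 0 := by exact_mod_cast Finsupp.mem_support_iff.1 hC
  exact (mul_eq_zero.1 this).resolve_left h1

/-- splitting off the greatest common divisor of two effective divisors -/
theorem exists_gcd (D E : K.κ →₀ ℕ) :
    ∃ G M N : K.κ →₀ ℕ, D = M + G ∧ E = N + G ∧ (∀ C, M C = 0 ∨ N C = 0) := by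
  refine ⟨D ⊓ E, D - D ⊓ E, E - D ⊓ E, ?_, ?_, ?_⟩
  · exact (tsub_add_cancel_of_le inf_le_left).symm
  · exact (tsub_add_cancel_of_le inf_le_right).symm
  · intro C
    simp only [Finsupp.coe_tsub, Pi.sub_apply, Finsupp.inf_apply]
    omega

/-- the class of two divisors without common component is nonnegative on all curves -/
theorem moving_nonneg {M N : K.κ →₀ ℕ} (hMN : ∀ C, M C = 0 ∨ N C = 0)
    (h : K.cls M = K.cls N) (C : K.κ) : 0 ≤ K.B (K.cls M) (K.cl C) := by
  rcases hMN C with h1 | h1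
  · exact K.nonneg_of_notMem M C h1
  · rw [h]; exact K.nonneg_of_notMem N C h1

end Curves

/-- a fibration, seen through its fibres -/
structure Fib {H : Type u} [AddCommGroup H] (K : Curves.{u, v} H) where
  /-- the class of the fibres -/
  e : H
  /-- the base -/
  S : Type w
  /-- the fibres -/
  F : S → K.κ →₀ ℕ
  cls_F : ∀ s, K.cls (F s) = e
  nonneg_e : ∀ C, 0 ≤ K.B e (K.cl C)
  vert : ∀ C, K.B e (K.cl C) = 0 ↔ ∃ s, C ∈ (F s).support
  ne : ∀ s, F s ≠ 0
  disj : ∀ s t, s ≠ t → ∀ C ∈ (F s).support, ∀ C' ∈ (F t).support,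
    C ≠ C' ∧ K.B (K.cl C) (K.cl C') = 0

namespace Fib

variable {H : Type u} [AddCommGroup H] {K : Curves.{u, v} H} (f : Fib.{u, v, w} K)

/-- connected fibres -/
def Conn : Prop :=
  ∀ s, ∀ T : Set K.κ, (∃ C ∈ (f.F s).support, C ∈ T) →
    (∀ C ∈ (f.F s).support, C ∈ T → ∀ C' ∈ (f.F s).support, C' ≠ C →
      0 < K.B (K.cl C) (K.cl C') → C' ∈ T) →
    ∀ C ∈ (f.F s).support, C ∈ T

theorem eq_of_mem {C : K.κ} {s t : f.S} (h1 : C ∈ (f.F s).support) (h2 : C ∈ (f.F t).support) :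
    s = t := by
  by_contra h
  exact (f.disj s t h C h1 C h2).1 rfl

open scoped Classical in
/-- the fibre index of a vertical curve -/
noncomputable def idx [Nonempty f.S] (C : K.κ) : f.S :=
  if h : ∃ s, C ∈ (f.F s).support then h.choose else Classical.arbitrary _

theorem mem_idx [Nonempty f.S] {C : K.κ} (h : K.B f.e (K.cl C) = 0) :
    C ∈ (f.F (f.idx C)).support := by
  have h' := (f.vert C).1 h
  rw [idx, dif_pos h']
  exact h'.choose_spec

theorem idx_eq [Nonempty f.S] {C : K.κ} {s : f.S} (h : C ∈ (f.F s).support) : f.idx C = s :=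
  f.eq_of_mem (f.mem_idx ((f.vert C).2 ⟨s, h⟩)) h

/-- multiplicity of a vertical curve in its fibre -/
noncomputable def mu [Nonempty f.S] (C : K.κ) : ℕ := f.F (f.idx C) C

theorem mu_eq [Nonempty f.S] {C : K.κ} {s : f.S} (h : C ∈ (f.F s).support) : f.mu C = f.F s C := by
  rw [mu, f.idx_eq h]

theorem mu_pos [Nonempty f.S] {C : K.κ} (h : K.B f.e (K.cl C) = 0) : 0 < f.mu C :=
  Nat.pos_of_ne_zero (Finsupp.mem_support_iff.1 (f.mem_idx h))

open scoped Classical in
/-- the union of the fibres over a finite set of points -/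
noncomputable def uni (A : Finset f.S) : Finset K.κ := A.biUnion fun s => (f.F s).support

theorem mem_uni {A : Finset f.S} {C : K.κ} : C ∈ f.uni A ↔ ∃ s ∈ A, C ∈ (f.F s).support := by
  classical
  simp [uni]

theorem vert_of_uni {A : Finset f.S} {C : K.κ} (h : C ∈ f.uni A) : K.B f.e (K.cl C) = 0 := by
  obtain ⟨s, _, hs⟩ := f.mem_uni.1 h
  exact (f.vert C).2 ⟨s, hs⟩

theorem row [Nonempty f.S] (A : Finset f.S) {C : K.κ} (hC : C ∈ f.uni A) :
    ∑ C' ∈ f.uni A, (f.mu C' : ℤ) * K.B (K.cl C) (K.cl C') = 0 := by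
  classical
  have h1 : ∑ C' ∈ f.uni A, (f.mu C' : ℤ) * K.B (K.cl C) (K.cl C')
      = ∑ s ∈ A, ∑ C' ∈ (f.F s).support, (f.mu C' : ℤ) * K.B (K.cl C) (K.cl C') := by
    rw [uni, Finset.sum_biUnion]
    intro s _ t _ hst
    rw [Function.onFun, Finset.disjoint_left]
    intro D h1 h2
    exact hst (f.eq_of_mem h1 h2)
  rw [h1]
  apply Finset.sum_eq_zero
  intro s _
  have h2 : ∑ C' ∈ (f.F s).support, (f.mu C' : ℤ) * K.B (K.cl C) (K.cl C')
      = K.B (K.cl C) (K.cls (f.F s)) := by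
    rw [K.B_cls_right (f.F s) (Finset.Subset.refl _)]
    refine Finset.sum_congr rfl fun C' hC' => ?_
    rw [f.mu_eq hC']
  rw [h2, f.cls_F, K.symm]
  exact f.vert_of_uni hC

/-- every vertical divisor lives on finitely many fibres -/
theorem exists_uni [Nonempty f.S] (V : K.κ →₀ ℕ) (hV : ∀ C ∈ V.support, K.B f.e (K.cl C) = 0) :
    ∃ A : Finset f.S, V.support ⊆ f.uni A ∧ ∀ s ∈ A, ∃ C ∈ V.support, C ∈ (f.F s).support := by
  classical
  refine ⟨V.support.image f.idx, ?_, ?_⟩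
  · intro C hC
    rw [f.mem_uni]
    exact ⟨f.idx C, Finset.mem_image_of_mem _ hC, f.mem_idx (hV C hC)⟩
  · intro s hs
    obtain ⟨C, hC, rfl⟩ := Finset.mem_image.1 hs
    exact ⟨C, hC, f.mem_idx (hV C hC)⟩

/-- **Zariski's lemma**, negativity (fibres need not be connected) -/
theorem zariski_nonpos [Nonempty f.S] (V : K.κ →₀ ℕ)
    (hV : ∀ C ∈ V.support, K.B f.e (K.cl C) = 0) : K.B (K.cls V) (K.cls V) ≤ 0 := by
  obtain ⟨A, hA, -⟩ := f.exists_uni V hV
  rw [K.B_cls_cls V V hA hA]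
  exact zar_nonpos (f.uni A) (fun C C' => K.B (K.cl C) (K.cl C')) (fun C => (f.mu C : ℤ))
    (fun C => (V C : ℤ)) (fun C _ C' _ => K.symm _ _)
    (fun C hC => by exact_mod_cast f.mu_pos (f.vert_of_uni hC))
    (fun C _ C' _ h => K.nonneg _ _ h) (fun C hC => f.row A hC)

/-- **Zariski's lemma**, equality: on connected fibres the coefficients are proportional -/
theorem zariski_prop [Nonempty f.S] (hc : f.Conn) (V : K.κ →₀ ℕ)
    (hV : ∀ C ∈ V.support, K.B f.e (K.cl C) = 0) (h0 : 0 ≤ K.B (K.cls V) (K.cls V))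
    (s : f.S) {C C' : K.κ} (hC : C ∈ (f.F s).support) (hC' : C' ∈ (f.F s).support) :
    V C * f.F s C' = V C' * f.F s C := by
  classical
  obtain ⟨A, hA, -⟩ := f.exists_uni V hV
  have hA' : V.support ⊆ f.uni (insert s A) := by
    intro D hD
    obtain ⟨t, ht, h⟩ := f.mem_uni.1 (hA hD)
    exact f.mem_uni.2 ⟨t, Finset.mem_insert_of_mem ht, h⟩
  rw [K.B_cls_cls V V hA' hA'] at h0
  have hin : ∀ D ∈ (f.F s).support, D ∈ f.uni (insert s A) := fun D hD =>
    f.mem_uni.2 ⟨s, Finset.mem_insert_self _ _, hD⟩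
  have hedge : ∀ D ∈ (f.F s).support, ∀ D' ∈ (f.F s).support, D' ≠ D →
      0 < K.B (K.cl D) (K.cl D') → (V D : ℤ) * f.mu D' = V D' * f.mu D := by
    intro D hD D' hD' hne hp
    exact zar_edge (f.uni (insert s A)) (fun C C' => K.B (K.cl C) (K.cl C'))
      (fun C => (f.mu C : ℤ)) (fun C => (V C : ℤ)) (fun C _ C' _ => K.symm _ _)
      (fun C hC => by exact_mod_cast f.mu_pos (f.vert_of_uni hC))
      (fun C _ C' _ h => K.nonneg _ _ h) (fun C hC => f.row _ hC) h0
      (hin D hD) (hin D' hD') hne.symm hp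
  have key := hc s {D | (V C : ℤ) * f.mu D = V D * f.mu C} ⟨C, hC, rfl⟩ (by
    intro D hD hDT D' hD' hne hp
    have h1 := hedge D hD D' hD' hne hp
    have h2 : (V C : ℤ) * f.mu D = V D * f.mu C := hDT
    have h3 : (f.mu D : ℤ) ≠ 0 := by
      exact_mod_cast (f.mu_pos ((f.vert D).2 ⟨s, hD⟩)).ne'
    show (V C : ℤ) * f.mu D' = V D' * f.mu C
    have : (f.mu D : ℤ) * ((V C : ℤ) * f.mu D') = f.mu D * (V D' * f.mu C) := by
      linear_combination (f.mu D' : ℤ) * h2 + (f.mu C : ℤ) * h1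
    exact mul_left_cancel₀ h3 this) C' hC'
  have key' : (V C : ℤ) * f.mu C' = V C' * f.mu C := key
  rw [f.mu_eq hC, f.mu_eq hC'] at key'
  exact_mod_cast key'

end Fib

end P290.H270
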