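import Mathlib.Algebra.BigOperators.Finprod
import Mathlib.Algebra.Group.Torsion
import Vale.Agent.P290.H270.Curves

/-! # P290, package ALG-NEF: the pencil lemma (helper270)

`Fib.zariski_class` : an effective vertical divisor of nonnegative square is, up to a multiple,
a sum of fibres.  `Fib.zariski_primitive` : if some class has degree one over the base it is
numerically a sum of fibres.

`Fib.pencil` : on a surface all of whose curves have degree divisible by `m ≥ 2` over the
base (index `m`), a class `v` with `v² = 0`, `v.e = m`, nonnegative on the vertical curves,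
having two different effective representatives, is a base point free pencil.
-/

namespace P290.H270

open Finset

universe u v w

namespace Fib

variable {H : Type u} [AddCommGroup H] {K : Curves.{u, v} H} (f : Fib.{u, v, w} K)

theorem e_e [Nonempty f.S] : K.B f.e f.e = 0 := by
  obtain ⟨s⟩ := ‹Nonempty f.S›
  rw [← f.cls_F s, K.B_cls_right (f.F s) (Finset.Subset.refl _)]
  apply Finset.sum_eq_zero
  intro C hC
  rw [f.cls_F, (f.vert C).2 ⟨s, hC⟩, mul_zero]

theorem e_nonneg_cls (D : K.κ →₀ ℕ) : 0 ≤ K.B f.e (K.cls D) :=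
  K.nonneg_of_forall _ _ fun C _ => f.nonneg_e C

theorem vert_of_cls {D : K.κ →₀ ℕ} (h : K.B f.e (K.cls D) = 0) :
    ∀ C ∈ D.support, K.B f.e (K.cl C) = 0 :=
  K.eq_zero_of_forall _ _ (fun C _ => f.nonneg_e C) h

theorem cls_vert {D : K.κ →₀ ℕ} (h : ∀ C ∈ D.support, K.B f.e (K.cl C) = 0) :
    K.B f.e (K.cls D) = 0 := by
  rw [K.B_cls_right D (Finset.Subset.refl _)]
  apply Finset.sum_eq_zero
  intro C hC
  rw [h C hC, mul_zero]

/-- **Zariski's lemma**, effective vertical divisors of nonnegative square -/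
theorem zariski_class [Nonempty f.S] (hc : f.Conn) (V : K.κ →₀ ℕ)
    (hV : ∀ C ∈ V.support, K.B f.e (K.cl C) = 0) (h0 : 0 ≤ K.B (K.cls V) (K.cls V)) :
    ∃ N k : ℕ, 0 < N ∧ N • K.cls V = k • f.e ∧ (k = 0 → V = 0) := by
  classical
  obtain ⟨A, hA, hA'⟩ := f.exists_uni V hV
  have : Nonempty K.κ := by
    obtain ⟨s⟩ := ‹Nonempty f.S›
    obtain ⟨C, _⟩ := Finsupp.ne_iff.1 (f.ne s)
    exact ⟨C⟩
  choose! c hc1 hc2 using hA'
  have hn : ∀ s ∈ A, 0 < f.F s (c s) := fun s hs =>
    Nat.pos_of_ne_zero (Finsupp.mem_support_iff.1 (hc2 s hs))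
  have hv : ∀ s ∈ A, 0 < V (c s) := fun s hs =>
    Nat.pos_of_ne_zero (Finsupp.mem_support_iff.1 (hc1 s hs))
  have key : (∏ s ∈ A, f.F s (c s)) • V
      = ∑ s ∈ A, ((∏ t ∈ A.erase s, f.F t (c t)) * V (c s)) • f.F s := by
    ext C
    simp only [Finsupp.coe_smul, Pi.smul_apply, smul_eq_mul, Finsupp.coe_finsetSum,
      Finset.sum_apply]
    by_cases hC : C ∈ f.uni A
    · obtain ⟨s, hs, hCs⟩ := f.mem_uni.1 hC
      rw [Finset.sum_eq_single s]
      · have h1 := f.zariski_prop hc V hV h0 s hCs (hc2 s hs)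
        rw [← Finset.mul_prod_erase A _ hs]
        calc (f.F s (c s) * ∏ x ∈ A.erase s, f.F x (c x)) * V C
            = (∏ x ∈ A.erase s, f.F x (c x)) * (V C * f.F s (c s)) := by ring
          _ = (∏ x ∈ A.erase s, f.F x (c x)) * (V (c s) * f.F s C) := by rw [h1]
          _ = _ := by ring
      · intro t _ hts
        have : f.F t C = 0 := by
          by_contra h
          exact hts (f.eq_of_mem (Finsupp.mem_support_iff.2 h) hCs)
        rw [this, mul_zero]
      · intro h; exact absurd hs h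
    · have h1 : V C = 0 := by
        by_contra h
        exact hC (hA (Finsupp.mem_support_iff.2 h))
      rw [h1, mul_zero]
      symm
      apply Finset.sum_eq_zero
      intro s hs
      have : f.F s C = 0 := by
        by_contra h
        exact hC (f.mem_uni.2 ⟨s, hs, Finsupp.mem_support_iff.2 h⟩)
      rw [this, mul_zero]
  refine ⟨∏ s ∈ A, f.F s (c s), ∑ s ∈ A, (∏ t ∈ A.erase s, f.F t (c t)) * V (c s),
    Finset.prod_pos hn, ?_, ?_⟩
  · rw [← K.cls_nsmul, key]
    have : ∀ B : Finset f.S, K.cls (∑ s ∈ B, ((∏ t ∈ A.erase s, f.F t (c t)) * V (c s)) • f.F s)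
        = (∑ s ∈ B, (∏ t ∈ A.erase s, f.F t (c t)) * V (c s)) • f.e := by
      intro B
      induction B using Finset.induction_on with
      | empty => simp
      | insert s B hs ih =>
        rw [Finset.sum_insert hs, Finset.sum_insert hs, K.cls_add, ih, K.cls_nsmul, f.cls_F,
          add_smul]
    exact this A
  · intro hk
    have hA0 : A = ∅ := by
      by_contra hne
      obtain ⟨s, hs⟩ := Finset.nonempty_iff_ne_empty.2 hne
      have h1 := (Finset.sum_eq_zero_iff).1 hk s hs
      have h2 : 0 < (∏ t ∈ A.erase s, f.F t (c t)) * V (c s) :=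
        Nat.mul_pos (Finset.prod_pos fun t ht => hn t (Finset.mem_of_mem_erase ht)) (hv s hs)
      omega
    rw [hA0] at hA
    have : V.support = ∅ := by
      have h2 : f.uni ∅ = ∅ := by simp [uni]
      rw [h2] at hA
      exact Finset.subset_empty.1 hA
    exact Finsupp.support_eq_empty.1 this

/-- if some class has degree one over the base, effective vertical divisors of
nonnegative square are numerically sums of fibres -/
theorem zariski_primitive [Nonempty f.S] [IsAddTorsionFree H] (hc : f.Conn) {c0 : H}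
    (hc0 : K.B c0 f.e = 1) (V : K.κ →₀ ℕ)
    (hV : ∀ C ∈ V.support, K.B f.e (K.cl C) = 0) (h0 : 0 ≤ K.B (K.cls V) (K.cls V)) :
    ∃ k : ℕ, K.cls V = k • f.e ∧ (k = 0 → V = 0) := by
  obtain ⟨N, k, hN, hk, hk0⟩ := f.zariski_class hc V hV h0
  have h1 : (N : ℤ) * K.B c0 (K.cls V) = k := by
    have := congrArg (K.B c0) hk
    rw [map_nsmul, map_nsmul, hc0, nsmul_eq_mul, nsmul_eq_mul, mul_one] at this
    exact this
  have h2 : 0 ≤ K.B c0 (K.cls V) := by
    by_contra h
    push Not at h
    have : (N : ℤ) * K.B c0 (K.cls V) < 0 := mul_neg_of_pos_of_neg (by exact_mod_cast hN) h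
    omega
  obtain ⟨j, hj⟩ := Int.eq_ofNat_of_zero_le h2
  rw [hj] at h1
  have h3 : N * j = k := by exact_mod_cast h1
  refine ⟨j, ?_, fun hj0 => hk0 (by rw [← h3, hj0, mul_zero])⟩
  have h4 : N • K.cls V = N • (j • f.e) := by rw [hk, ← h3, mul_smul]
  exact nsmul_right_injective hN.ne' h4

/-- **The pencil lemma**. -/
theorem pencil [Nonempty f.S] [IsAddTorsionFree H] (hc : f.Conn) {c0 : H}
    (hc0 : K.B c0 f.e = 1) {m : ℤ} (hm : 2 ≤ m)
    (hindex : ∀ C, m ∣ K.B f.e (K.cl C))
    (hself : ∀ C, -2 ≤ K.B (K.cl C) (K.cl C))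
    {v : H} (hvv : K.B v v = 0) (hve : K.B v f.e = m)
    (hvv' : ∀ C, K.B f.e (K.cl C) = 0 → 0 ≤ K.B v (K.cl C))
    {D₁ D₂ : K.κ →₀ ℕ} (hne : D₁ ≠ D₂) (h1 : K.cls D₁ = v) (h2 : K.cls D₂ = v) :
    ∀ C ∈ D₁.support, ∀ C' ∈ D₂.support, C ≠ C' ∧ K.B (K.cl C) (K.cl C') = 0 := by
  obtain ⟨G, M, N, hM, hN, hMN⟩ := K.exists_gcd D₁ D₂
  have hMc : K.cls M = K.cls N := by
    have : K.cls M + K.cls G = K.cls N + K.cls G := by
      rw [← K.cls_add, ← K.cls_add, ← hM, ← hN, h1, h2]
    exact add_right_cancel this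
  have hv : v = K.cls M + K.cls G := by rw [← h1, hM, K.cls_add]
  have hMnn : ∀ C, 0 ≤ K.B (K.cls M) (K.cl C) := K.moving_nonneg hMN hMc
  have hMM : 0 ≤ K.B (K.cls M) (K.cls M) := K.nonneg_of_forall _ _ fun C _ => hMnn C
  have hMG : 0 ≤ K.B (K.cls M) (K.cls G) := K.nonneg_of_forall _ _ fun C _ => hMnn C
  have hMe := f.e_nonneg_cls M
  have hGe := f.e_nonneg_cls G
  have hsum : K.B f.e (K.cls M) + K.B f.e (K.cls G) = m := by
    rw [← map_add, ← hv, K.symm, hve]
  have hdvd : ∀ D : K.κ →₀ ℕ, m ∣ K.B f.e (K.cls D) := by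
    intro D
    rw [K.B_cls_right D (Finset.Subset.refl _)]
    exact Finset.dvd_sum fun C _ => Dvd.dvd.mul_left (hindex C) _
  -- the case `M` vertical is impossible
  have hMe0 : K.B f.e (K.cls M) ≠ 0 := by
    intro hMe0
    have hMv := f.vert_of_cls hMe0
    obtain ⟨k, hk, hk0⟩ := f.zariski_primitive hc hc0 M hMv hMM
    have hkpos : k ≠ 0 := by
      intro h0
      have hM0 := hk0 h0
      have hN0 : N = 0 := by
        have hNe : K.B f.e (K.cls N) = 0 := by rw [← hMc]; exact hMe0
        obtain ⟨k', hk', hk0'⟩ := f.zariski_primitive hc hc0 N (f.vert_of_cls hNe)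
          (by rw [← hMc]; exact hMM)
        apply hk0'
        have h3 : K.cls N = 0 := by rw [← hMc, hk, h0, zero_smul]
        rw [h3] at hk'
        have := congrArg (K.B c0) hk'
        rw [map_nsmul, hc0, map_zero, nsmul_eq_mul, mul_one] at this
        exact_mod_cast this.symm
      exact hne (by rw [hM, hN, hM0, hN0])
    have hGm : K.B f.e (K.cls G) = m := by omega
    -- a horizontal component of `G`
    obtain ⟨R, hRG, hRe⟩ : ∃ R ∈ G.support, K.B f.e (K.cl R) ≠ 0 := by
      by_contra hcon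
      push Not at hcon
      have := f.cls_vert hcon
      omega
    have hRpos : m ≤ K.B f.e (K.cl R) :=
      Int.le_of_dvd (lt_of_le_of_ne (f.nonneg_e R) hRe.symm) (hindex R)
    -- split it off
    obtain ⟨V, hV⟩ : ∃ V : K.κ →₀ ℕ, G = Finsupp.single R 1 + V := by
      refine ⟨G - Finsupp.single R 1, ?_⟩
      refine (add_tsub_cancel_of_le ?_).symm
      intro C
      rcases eq_or_ne C R with rfl | h
      · rw [Finsupp.single_eq_same]
        exact Nat.one_le_iff_ne_zero.2 (Finsupp.mem_support_iff.1 hRG)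
      · rw [Finsupp.single_eq_of_ne h]; exact Nat.zero_le _
    have hclsR : K.cls (Finsupp.single R 1) = K.cl R := by
      simp [Curves.cls]
    have hGV : K.cls G = K.cl R + K.cls V := by rw [hV, K.cls_add, hclsR]
    have hVe : K.B f.e (K.cls V) = 0 := by
      have h3 : K.B f.e (K.cl R) + K.B f.e (K.cls V) = m := by rw [← map_add, ← hGV, hGm]
      have := f.e_nonneg_cls V
      omega
    have hRe' : K.B f.e (K.cl R) = m := by
      have h3 : K.B f.e (K.cl R) + K.B f.e (K.cls V) = m := by rw [← map_add, ← hGV, hGm]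
      omega
    have hVv := f.vert_of_cls hVe
    have hVR : 0 ≤ K.B (K.cl R) (K.cls V) := by
      rw [K.symm]
      apply K.nonneg_of_notMem
      by_contra h
      exact hRe (hVv R (Finsupp.mem_support_iff.2 h))
    have hvV : 0 ≤ K.B v (K.cls V) := K.nonneg_of_forall _ _ fun C hC => hvv' C (hVv C hC)
    have hMR : K.B (K.cls M) (K.cl R) = k * m := by
      rw [hk, map_nsmul, AddMonoidHom.nsmul_apply, nsmul_eq_mul, hRe']
    have hvR : K.B v (K.cl R) = k * m + (K.B (K.cl R) (K.cl R) + K.B (K.cl R) (K.cls V)) := by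
      rw [hv, hGV]
      simp only [map_add, AddMonoidHom.add_apply]
      rw [hMR, K.symm (K.cls V) (K.cl R)]
    have hvM : K.B v (K.cls M) = k * m := by
      rw [hk, map_nsmul, nsmul_eq_mul, hve]
    have htot : K.B v v = K.B v (K.cls M) + (K.B v (K.cl R) + K.B v (K.cls V)) := by
      conv_lhs => rw [show K.B v v = K.B v (K.cls M + (K.cl R + K.cls V)) by rw [← hGV, ← hv]]
      rw [map_add, map_add]
    have hR2 := hself R
    have hk1 : (1 : ℤ) ≤ k := by exact_mod_cast Nat.one_le_iff_ne_zero.2 hkpos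
    have hkm : 2 ≤ (k : ℤ) * m := by nlinarith
    rw [hvv, hvM, hvR] at htot
    omega
  -- so `G` is vertical
  have hGe0 : K.B f.e (K.cls G) = 0 := by
    have h3 : m ≤ K.B f.e (K.cls M) :=
      Int.le_of_dvd (lt_of_le_of_ne hMe hMe0.symm) (hdvd M)
    omega
  have hGv := f.vert_of_cls hGe0
  have hvG : 0 ≤ K.B v (K.cls G) := K.nonneg_of_forall _ _ fun C hC => hvv' C (hGv C hC)
  have hvM : K.B v (K.cls M) = K.B (K.cls M) (K.cls M) + K.B (K.cls M) (K.cls G) := by
    conv_lhs => rw [hv, map_add, AddMonoidHom.add_apply, K.symm (K.cls G) (K.cls M)]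
  have htot : K.B v v = K.B v (K.cls M) + K.B v (K.cls G) := by
    conv_lhs => rw [show K.B v v = K.B v (K.cls M + K.cls G) by rw [← hv]]
    rw [map_add]
  rw [hvv, hvM] at htot
  have hvG' : K.B v (K.cls G) = K.B (K.cls M) (K.cls G) + K.B (K.cls G) (K.cls G) := by
    conv_lhs => rw [hv, map_add, AddMonoidHom.add_apply]
  have hMM0 : K.B (K.cls M) (K.cls M) = 0 := by omega
  have hMG0 : K.B (K.cls M) (K.cls G) = 0 := by omega
  have hvG0 : K.B v (K.cls G) = 0 := by omega
  have hGG : 0 ≤ K.B (K.cls G) (K.cls G) := by omega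
  obtain ⟨k, hk, hk0⟩ := f.zariski_primitive hc hc0 G hGv hGG
  have hG0 : G = 0 := by
    apply hk0
    rw [hk, map_nsmul, nsmul_eq_mul, hve] at hvG0
    have : (k : ℤ) = 0 := (mul_eq_zero.1 hvG0).resolve_right (by omega)
    exact_mod_cast this
  have hD1 : D₁ = M := by rw [hM, hG0, add_zero]
  have hD2 : D₂ = N := by rw [hN, hG0, add_zero]
  intro C hC C' hC'
  rw [hD1] at hC
  rw [hD2] at hC'
  constructor
  · rintro rfl
    rcases hMN C with h | h
    · exact Finsupp.mem_support_iff.1 hC h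
    · exact Finsupp.mem_support_iff.1 hC' h
  · -- `M.N = M.M = 0`
    have h3 : K.B (K.cls M) (K.cls N) = 0 := by rw [← hMc]; exact hMM0
    have h4 : K.B (K.cls M) (K.cl C') = 0 :=
      K.eq_zero_of_forall _ _ (fun C _ => hMnn C) h3 C' hC'
    have h5 : ∀ E ∈ M.support, 0 ≤ K.B (K.cl C') (K.cl E) := by
      intro E hE
      apply K.nonneg
      rintro rfl
      rcases hMN C' with h | h
      · exact Finsupp.mem_support_iff.1 hE h
      · exact Finsupp.mem_support_iff.1 hC' h
    have h6 := K.eq_zero_of_forall _ M h5 (by rw [K.symm]; exact h4) C hC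
    rw [K.symm]; exact h6

end Fib

end P290.H270
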